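import Vale.Agent.P233.MathlibUsed2

/-! P233, block UST (helper196), part 1: limits along a filter of time dependent objects.
Continuous convergence, uniform convergence on compact time intervals, limits of equi-Lipschitz
potentials (uniform outside sets of small measure), limits of integrals. -/

open MeasureTheory Filter Topology Set
open scoped ENNReal NNReal InnerProductSpace

namespace Vale.Agent.P233.UST

/-! ### limits of real families along ultrafilters -/

/-- A bounded family of real numbers has a limit along an ultrafilter. -/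
theorem exists_lim {ι : Type*} (U : Ultrafilter ι) {a : ι → ℝ} {c : ℝ}
    (h : ∀ᶠ n in (U : Filter ι), |a n| ≤ c) : ∃ x : ℝ, |x| ≤ c ∧ Tendsto a U (𝓝 x) := by
  have hK : IsCompact (Icc (-c) c) := isCompact_Icc
  have h1 : (U.map a : Filter ℝ) ≤ 𝓟 (Icc (-c) c) := by
    rw [le_principal_iff]
    have : ∀ᶠ n in (U : Filter ι), a n ∈ Icc (-c) c := by
      filter_upwards [h] with n hn
      exact abs_le.1 hn
    exact this
  obtain ⟨x, hx, hx2⟩ := hK.ultrafilter_le_nhds (U.map a) h1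
  exact ⟨x, abs_le.2 hx, hx2⟩

/-! ### continuous convergence -/

/-- `F n t → F0 t0` when `n → l` and `t → t0` in `S`, for every `t0` in `S`. -/
def CC {ι X Y : Type*} [TopologicalSpace X] [TopologicalSpace Y] (l : Filter ι) (S : Set X)
    (F : ι → X → Y) (F0 : X → Y) : Prop :=
  ∀ t0 ∈ S, Tendsto (fun p : ι × X => F p.1 p.2) (l ×ˢ 𝓝[S] t0) (𝓝 (F0 t0))

section cc

variable {ι X Y Z : Type*} [TopologicalSpace X] {l : Filter ι} {S : Set X}

theorem CC.tendsto [TopologicalSpace Y] {F : ι → X → Y} {F0 : X → Y} (h : CC l S F F0) {t : X}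
    (ht : t ∈ S) : Tendsto (fun n => F n t) l (𝓝 (F0 t)) := by
  have h1 : Tendsto (fun n : ι => (n, t)) l (l ×ˢ 𝓝[S] t) :=
    tendsto_id.prodMk (tendsto_const_nhdsWithin ht)
  exact (h t ht).comp h1

theorem CC.mono [TopologicalSpace Y] {F : ι → X → Y} {F0 : X → Y} (h : CC l S F F0) {T : Set X}
    (hT : T ⊆ S) : CC l T F F0 := fun t ht =>
  (h t (hT ht)).mono_left (Filter.prod_mono le_rfl (nhdsWithin_mono _ hT))

theorem CC.comp₂ [TopologicalSpace Y] [TopologicalSpace Z] {W : Type*} [TopologicalSpace W]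
    {F : ι → X → Y} {F0 : X → Y} {G : ι → X → Z} {G0 : X → Z} (hF : CC l S F F0)
    (hG : CC l S G G0) {φ : Y → Z → W} (hφ : Continuous fun p : Y × Z => φ p.1 p.2) :
    CC l S (fun n t => φ (F n t) (G n t)) (fun t => φ (F0 t) (G0 t)) := by
  intro t ht
  have := (hF t ht).prodMk_nhds (hG t ht)
  exact (hφ.tendsto (F0 t, G0 t)).comp this

theorem CC.comp₁ [TopologicalSpace Y] [TopologicalSpace Z]
    {F : ι → X → Y} {F0 : X → Y} (hF : CC l S F F0) {φ : Y → Z} (hφ : Continuous φ) :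
    CC l S (fun n t => φ (F n t)) (fun t => φ (F0 t)) := fun t ht =>
  (hφ.tendsto (F0 t)).comp (hF t ht)

theorem CC.add {F G : ι → X → ℝ} {F0 G0 : X → ℝ} (hF : CC l S F F0) (hG : CC l S G G0) :
    CC l S (fun n t => F n t + G n t) (fun t => F0 t + G0 t) :=
  hF.comp₂ hG (φ := fun a b => a + b) (by fun_prop)

theorem CC.sub {F G : ι → X → ℝ} {F0 G0 : X → ℝ} (hF : CC l S F F0) (hG : CC l S G G0) :
    CC l S (fun n t => F n t - G n t) (fun t => F0 t - G0 t) :=
  hF.comp₂ hG (φ := fun a b => a - b) (by fun_prop)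

theorem CC.mul {F G : ι → X → ℝ} {F0 G0 : X → ℝ} (hF : CC l S F F0) (hG : CC l S G G0) :
    CC l S (fun n t => F n t * G n t) (fun t => F0 t * G0 t) :=
  hF.comp₂ hG (φ := fun a b => a * b) (by fun_prop)

/-- A continuous function of `t` alone. -/
theorem CC.of_continuousOn [TopologicalSpace Y] {F : X → Y} (h : ContinuousOn F S) :
    CC l S (fun _ t => F t) F := fun t ht => Tendsto.comp (h t ht) tendsto_snd

/-- A family that converges and does not depend on `t`. -/
theorem CC.of_tendsto [TopologicalSpace Y] {c : ι → Y} {c0 : Y} (h : Tendsto c l (𝓝 c0)) :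
    CC l S (fun n _ => c n) (fun _ => c0) := fun _ _ => h.comp tendsto_fst

theorem CC.congr [TopologicalSpace Y] {F G : ι → X → Y} {F0 G0 : X → Y} (h : CC l S F F0)
    (hFG : ∀ᶠ n in l, ∀ t ∈ S, F n t = G n t) (h0 : ∀ t ∈ S, F0 t = G0 t) : CC l S G G0 := by
  intro t ht
  rw [← h0 t ht]
  refine (h t ht).congr' ?_
  have h2 : ∀ᶠ s in 𝓝[S] t, s ∈ S := eventually_mem_nhdsWithin
  filter_upwards [hFG.prod_mk h2] with p hp
  exact hp.1 _ hp.2

/-- squeeze -/
theorem CC.of_dist_le [PseudoMetricSpace Y] {F : ι → X → Y} {F0 : X → Y} {e : ι → X → ℝ}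
    (h0 : ContinuousOn F0 S) (h : ∀ᶠ n in l, ∀ t ∈ S, dist (F n t) (F0 t) ≤ e n t)
    (he : CC l S e (fun _ => 0)) : CC l S F F0 := by
  intro t ht
  have h2 : ∀ᶠ s in 𝓝[S] t, s ∈ S := eventually_mem_nhdsWithin
  have h3 : ∀ᶠ p : ι × X in l ×ˢ 𝓝[S] t, dist (F p.1 p.2) (F0 t)
      ≤ e p.1 p.2 + dist (F0 p.2) (F0 t) := by
    filter_upwards [h.prod_mk h2] with p hp
    exact (dist_triangle _ (F0 p.2) _).trans (by gcongr; exact hp.1 _ hp.2)
  have h4 : Tendsto (fun p : ι × X => dist (F0 p.2) (F0 t)) (l ×ˢ 𝓝[S] t) (𝓝 0) := by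
    have h5 : Tendsto (fun p : ι × X => F0 p.2) (l ×ˢ 𝓝[S] t) (𝓝 (F0 t)) :=
      Tendsto.comp (h0 t ht) tendsto_snd
    exact tendsto_iff_dist_tendsto_zero.1 h5
  rw [tendsto_iff_dist_tendsto_zero]
  have h6 := (he t ht).add h4
  simp only [add_zero] at h6
  exact squeeze_zero' (Eventually.of_forall fun p => dist_nonneg) h3 h6

/-- The limit of a continuously convergent family is continuous. -/
theorem CC.continuousOn [l.NeBot] [PseudoMetricSpace Y] {F : ι → X → Y} {F0 : X → Y}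
    (h : CC l S F F0) : ContinuousOn F0 S := by
  intro t ht
  rw [ContinuousWithinAt, Metric.tendsto_nhds]
  intro ε hε
  have h1 := (Metric.tendsto_nhds.1 (h t ht)) (ε / 2) (by positivity)
  obtain ⟨A, hA, B, hB, hAB⟩ := eventually_prod_iff.1 h1
  have h2 : ∀ᶠ s in 𝓝[S] t, s ∈ S := eventually_mem_nhdsWithin
  filter_upwards [hB, h2] with s hs hsS
  have h3 : Tendsto (fun n => dist (F n s) (F0 t)) l (𝓝 (dist (F0 s) (F0 t))) :=
    (h.tendsto hsS).dist tendsto_const_nhds
  have h4 : dist (F0 s) (F0 t) ≤ ε / 2 :=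
    le_of_tendsto h3 (hA.mono fun n hn => (hAB hn hs).le)
  linarith

/-- Continuous convergence is uniform on compact sets. -/
theorem CC.uniform [l.NeBot] [PseudoMetricSpace Y] {F : ι → X → Y} {F0 : X → Y}
    (h : CC l S F F0) (hS : IsCompact S) : TendstoUniformlyOn F F0 l S := by
  rw [Metric.tendstoUniformlyOn_iff]
  intro ε hε
  have hc := h.continuousOn
  have key : ∀ t ∈ S, ∃ V ∈ 𝓝[S] t, ∀ᶠ n in l, ∀ s ∈ V ∩ S, dist (F0 s) (F n s) < ε := by
    intro t ht
    have h1 := (Metric.tendsto_nhds.1 (h t ht)) (ε / 2) (by positivity)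
    obtain ⟨A, hA, B, hB, hAB⟩ := eventually_prod_iff.1 h1
    have h2 := (Metric.tendsto_nhds.1 (hc t ht)) (ε / 2) (by positivity)
    refine ⟨{s | B s} ∩ {s | dist (F0 s) (F0 t) < ε / 2}, inter_mem hB h2, ?_⟩
    filter_upwards [hA] with n hn s hs
    have h3 := hAB hn hs.1.1
    have h4 : dist (F0 s) (F0 t) < ε / 2 := hs.1.2
    calc dist (F0 s) (F n s) ≤ dist (F0 s) (F0 t) + dist (F0 t) (F n s) := dist_triangle _ _ _
      _ < ε / 2 + ε / 2 := by rw [dist_comm (F0 t)]; exact add_lt_add h4 h3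
      _ = ε := by ring
  choose! V hV hV2 using key
  obtain ⟨T, hTS, hcov⟩ := hS.elim_nhdsWithin_subcover V hV
  have h5 : ∀ᶠ n in l, ∀ t ∈ T, ∀ s ∈ V t ∩ S, dist (F0 s) (F n s) < ε :=
    (eventually_all_finset T).2 fun t ht => hV2 t (hTS t ht)
  filter_upwards [h5] with n hn s hs
  obtain ⟨t, ht, hst⟩ := mem_iUnion₂.1 (hcov hs)
  exact hn t ht s ⟨hst, hs⟩

/-- Pointwise convergence and equicontinuity on `S` give continuous convergence. -/
theorem CC.of_equicontinuous [PseudoMetricSpace Y] {F : ι → X → Y} {F0 : X → Y}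
    (hp : ∀ t ∈ S, Tendsto (fun n => F n t) l (𝓝 (F0 t)))
    (he : ∀ t ∈ S, ∀ ε > 0, ∀ᶠ p : ι × X in l ×ˢ 𝓝[S] t, dist (F p.1 p.2) (F p.1 t) ≤ ε) :
    CC l S F F0 := by
  intro t ht
  rw [Metric.tendsto_nhds]
  intro ε hε
  have h1 := he t ht (ε / 2) (by positivity)
  have h2 : ∀ᶠ p : ι × X in l ×ˢ 𝓝[S] t, dist (F p.1 t) (F0 t) < ε / 2 :=
    ((Metric.tendsto_nhds.1 (hp t ht)) (ε / 2) (by positivity)).prod_inl _
  filter_upwards [h1, h2] with p hp1 hp2
  calc dist (F p.1 p.2) (F0 t) ≤ dist (F p.1 p.2) (F p.1 t) + dist (F p.1 t) (F0 t) :=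
        dist_triangle _ _ _
    _ < ε / 2 + ε / 2 := add_lt_add_of_le_of_lt hp1 hp2
    _ = ε := by ring

end cc

/-- Pointwise convergence of equi-Lipschitz functions. -/
theorem CC.of_lipschitz {ι X Y : Type*} [PseudoMetricSpace X] [PseudoMetricSpace Y] {l : Filter ι}
    {S : Set X} {F : ι → X → Y} {F0 : X → Y} {L : ℝ}
    (hp : ∀ t ∈ S, Tendsto (fun n => F n t) l (𝓝 (F0 t)))
    (hL : ∀ᶠ n in l, ∀ s ∈ S, ∀ t ∈ S, dist (F n s) (F n t) ≤ L * dist s t) :
    CC l S F F0 := by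
  refine CC.of_equicontinuous hp fun t ht ε hε => ?_
  have h2 : ∀ᶠ s in 𝓝[S] t, s ∈ S := eventually_mem_nhdsWithin
  have h3 : ∀ᶠ s in 𝓝[S] t, dist s t < ε / (|L| + 1) :=
    mem_nhdsWithin_of_mem_nhds (Metric.ball_mem_nhds t (by positivity))
  filter_upwards [hL.prod_mk (h2.and h3)] with p hp
  calc dist (F p.1 p.2) (F p.1 t) ≤ L * dist p.2 t := hp.1 _ hp.2.1 _ ht
    _ ≤ (|L| + 1) * dist p.2 t := by
        gcongr
        linarith [le_abs_self L]
    _ ≤ (|L| + 1) * (ε / (|L| + 1)) := by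
        gcongr
        exact hp.2.2.le
    _ = ε := by field_simp

/-! ### integration in time -/

/-- Uniform convergence on `[a,b]` gives convergence of the integrals. -/
theorem tendsto_intervalIntegral_of_uniform {ι : Type*} {l : Filter ι} {F : ι → ℝ → ℝ}
    {F0 : ℝ → ℝ} {a b : ℝ} (hab : a ≤ b) (h : TendstoUniformlyOn F F0 l (Icc a b))
    (hF : ∀ᶠ n in l, IntervalIntegrable (F n) volume a b)
    (hF0 : IntervalIntegrable F0 volume a b) :
    Tendsto (fun n => ∫ t in a..b, F n t) l (𝓝 (∫ t in a..b, F0 t)) := by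
  rw [Metric.tendsto_nhds]
  intro ε hε
  have h1 := (Metric.tendstoUniformlyOn_iff.1 h) (ε / (b - a + 1)) (by
    have : 0 ≤ b - a := by linarith
    positivity)
  filter_upwards [h1, hF] with n hn hFn
  rw [Real.dist_eq, ← intervalIntegral.integral_sub hFn hF0]
  have h2 : ‖∫ t in a..b, (F n t - F0 t)‖ ≤ ε / (b - a + 1) * |b - a| := by
    apply intervalIntegral.norm_integral_le_of_norm_le_const
    intro t ht
    rw [uIoc_of_le hab] at ht
    have := hn t ⟨ht.1.le, ht.2⟩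
    rw [Real.dist_eq, abs_sub_comm] at this
    exact this.le
  rw [Real.norm_eq_abs] at h2
  refine lt_of_le_of_lt h2 ?_
  have h0 : 0 ≤ b - a := by linarith
  rw [abs_of_nonneg h0, div_mul_eq_mul_div, div_lt_iff₀ (by positivity)]
  nlinarith

/-- Continuous convergence on `[a,b]` gives convergence of the integrals. -/
theorem CC.tendsto_intervalIntegral {ι : Type*} {l : Filter ι} [l.NeBot] {F : ι → ℝ → ℝ}
    {F0 : ℝ → ℝ} {a b : ℝ} (hab : a ≤ b) (h : CC l (Icc a b) F F0)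
    (hF : ∀ᶠ n in l, IntervalIntegrable (F n) volume a b) :
    Tendsto (fun n => ∫ t in a..b, F n t) l (𝓝 (∫ t in a..b, F0 t)) := by
  refine tendsto_intervalIntegral_of_uniform hab (h.uniform isCompact_Icc) hF ?_
  have := h.continuousOn
  rw [← uIcc_of_le hab] at this
  exact this.intervalIntegrable

end Vale.Agent.P233.UST
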