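import Vale.Agent.P233.H196.UST1

/-! P233, block UST (helper196), part 2: limits of equi-Lipschitz, equi-bounded functions of
`(t, x)`: existence along an ultrafilter, uniform convergence outside sets of small measure,
convergence of weighted integrals, uniformly in time. -/

open MeasureTheory Filter Topology Set
open scoped ENNReal NNReal InnerProductSpace

namespace Vale.Agent.P233.UST

/-- `v` is `L`-Lipschitz in `(t, x)` and bounded by `B` on `[a,b] × M`. -/
structure LipB {M : Type*} [PseudoMetricSpace M] (L B a b : ℝ) (v : ℝ → M → ℝ) : Prop where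
  lip : ∀ s ∈ Icc a b, ∀ t ∈ Icc a b, ∀ x y, |v s x - v t y| ≤ L * (|s - t| + dist x y)
  bd : ∀ t ∈ Icc a b, ∀ x, |v t x| ≤ B

section pot

variable {ι M : Type*} [PseudoMetricSpace M] {L B a b : ℝ}

theorem LipB.continuousOn {v : ℝ → M → ℝ} (h : LipB L B a b v) (x : M) :
    ContinuousOn (fun t => v t x) (Icc a b) := by
  intro t ht
  rw [ContinuousWithinAt, tendsto_iff_dist_tendsto_zero]
  have h1 : Tendsto (fun s : ℝ => L * (|s - t| + dist x x)) (𝓝[Icc a b] t)
      (𝓝 (L * (|t - t| + dist x x))) := by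
    have : Continuous fun s : ℝ => L * (|s - t| + dist x x) := by fun_prop
    exact (this.tendsto t).mono_left nhdsWithin_le_nhds
  simp only [sub_self, abs_zero, dist_self, add_zero, mul_zero] at h1
  refine squeeze_zero' (Eventually.of_forall fun s => dist_nonneg) ?_ h1
  filter_upwards [self_mem_nhdsWithin] with s hs
  have := h.lip s hs t ht x x
  rw [Real.dist_eq]
  simpa using this

theorem LipB.continuous {v : ℝ → M → ℝ} (h : LipB L B a b v) {t : ℝ} (ht : t ∈ Icc a b) :
    Continuous (v t) := by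
  have h1 : LipschitzWith (Real.toNNReal L) (v t) := by
    refine LipschitzWith.of_dist_le_mul fun x y => ?_
    have := h.lip t ht t ht x y
    rw [sub_self, abs_zero, zero_add] at this
    rw [Real.dist_eq]
    exact this.trans (mul_le_mul_of_nonneg_right (Real.le_coe_toNNReal L) dist_nonneg)
  exact h1.continuous

/-- Existence of the limit along an ultrafilter. -/
theorem exists_potential (U : Ultrafilter ι) {u : ι → ℝ → M → ℝ}
    (h : ∀ᶠ n in (U : Filter ι), LipB L B a b (u n)) :
    ∃ u0 : ℝ → M → ℝ, LipB L B a b u0 ∧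
      ∀ t ∈ Icc a b, ∀ x, Tendsto (fun n => u n t x) U (𝓝 (u0 t x)) := by
  have h1 : ∀ t : ℝ, ∀ x : M, ∃ z : ℝ, t ∈ Icc a b →
      |z| ≤ B ∧ Tendsto (fun n => u n t x) U (𝓝 z) := by
    intro t x
    by_cases ht : t ∈ Icc a b
    · obtain ⟨z, hz, hz2⟩ := exists_lim U (a := fun n => u n t x) (c := B)
        (h.mono fun n hn => hn.bd t ht x)
      exact ⟨z, fun _ => ⟨hz, hz2⟩⟩
    · exact ⟨0, fun h => absurd h ht⟩
  choose u0 hu0 using h1
  refine ⟨u0, ⟨fun s hs t ht x y => ?_, fun t ht x => (hu0 t x ht).1⟩,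
    fun t ht x => (hu0 t x ht).2⟩
  have h2 : Tendsto (fun n => |u n s x - u n t y|) U (𝓝 |u0 s x - u0 t y|) :=
    ((hu0 s x hs).2.sub (hu0 t y ht).2).abs
  exact le_of_tendsto h2 (h.mono fun n hn => hn.lip s hs t ht x y)

/-- The same with a limit which is Lipschitz and bounded for all times. -/
theorem exists_potential' (U : Ultrafilter ι) (hab : a ≤ b) {u : ι → ℝ → M → ℝ}
    (h : ∀ᶠ n in (U : Filter ι), LipB L B a b (u n)) (hL : 0 ≤ L) :
    ∃ u0 : ℝ → M → ℝ, (∀ s t x y, |u0 s x - u0 t y| ≤ L * (|s - t| + dist x y)) ∧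
      (∀ t x, |u0 t x| ≤ B) ∧
      ∀ t ∈ Icc a b, ∀ x, Tendsto (fun n => u n t x) U (𝓝 (u0 t x)) := by
  obtain ⟨u0, h0, h1⟩ := exists_potential U h
  refine ⟨fun t x => u0 (projIcc a b hab t) x, fun s t x y => ?_, fun t x => ?_,
    fun t ht x => ?_⟩
  · refine (h0.lip _ (projIcc a b hab s).2 _ (projIcc a b hab t).2 x y).trans ?_
    have := abs_projIcc_sub_projIcc (a := a) (b := b) (c := s) (d := t) hab
    exact mul_le_mul_of_nonneg_left (by linarith) hL
  · exact h0.bd _ (projIcc a b hab t).2 x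
  · have : (projIcc a b hab t : ℝ) = t := by rw [projIcc_of_mem hab ht]
    simp only [this]
    exact h1 t ht x

/-- The pointwise limit of equi-Lipschitz functions is uniform in `t ∈ [a,b]` and `x ∈ A`, where
the complement of the open set `A` has small measure. -/
theorem unif_off_small [TopologicalSpace.SeparableSpace M] [MeasurableSpace M]
    [OpensMeasurableSpace M] (ν : Measure M) [IsFiniteMeasure ν] {l : Filter ι}
    {u : ι → ℝ → M → ℝ} {u0 : ℝ → M → ℝ} (h : ∀ᶠ n in l, LipB L B a b (u n))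
    (h0 : LipB L B a b u0)
    (hlim : ∀ t ∈ Icc a b, ∀ x, Tendsto (fun n => u n t x) l (𝓝 (u0 t x)))
    {ε : ℝ} (hε : 0 < ε) :
    ∃ A : Set M, IsOpen A ∧ ν Aᶜ ≤ ENNReal.ofReal ε ∧
      ∀ᶠ n in l, ∀ t ∈ Icc a b, ∀ x ∈ A, |u n t x - u0 t x| ≤ ε := by
  rcases isEmpty_or_nonempty M with hM | hM
  · exact ⟨∅, isOpen_empty, by simp [Set.eq_empty_of_isEmpty], Eventually.of_forall
      fun n t _ x hx => absurd hx (Set.notMem_empty x)⟩
  set δ : ℝ := ε / (4 * |L| + 1) with hδ
  have hδ0 : 0 < δ := by positivity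
  have hδε : 4 * |L| * δ + δ = ε := by
    rw [hδ]; field_simp
  let z : ℕ → M := TopologicalSpace.denseSeq M
  let A : ℕ → Set M := fun k => ⋃ i ∈ Finset.range k, Metric.ball (z i) δ
  have hAo : ∀ k, IsOpen (A k) := fun k => isOpen_biUnion fun i _ => Metric.isOpen_ball
  have hAm : Monotone A := by
    intro k k' hk
    refine biUnion_subset_biUnion_left fun i hi => ?_
    simp only [Finset.coe_range, mem_Iio] at hi ⊢
    exact lt_of_lt_of_le hi hk
  have hAu : (⋂ k, (A k)ᶜ) = ∅ := by
    rw [← compl_iUnion, compl_empty_iff, eq_univ_iff_forall]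
    intro x
    obtain ⟨i, hi⟩ := (TopologicalSpace.denseRange_denseSeq M).exists_dist_lt x hδ0
    refine mem_iUnion.2 ⟨i + 1, mem_iUnion₂.2 ⟨i, by simp, ?_⟩⟩
    rw [Metric.mem_ball]
    exact hi
  have hAt : Tendsto (fun k => ν (A k)ᶜ) atTop (𝓝 0) := by
    have h1 := tendsto_measure_iInter_atTop (μ := ν) (s := fun k => (A k)ᶜ)
      (fun k => (hAo k).measurableSet.compl.nullMeasurableSet)
      (fun k k' hk => compl_subset_compl.2 (hAm hk)) ⟨0, measure_ne_top ν _⟩
    rwa [hAu, measure_empty] at h1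
  obtain ⟨k, hk⟩ := ((tendsto_order.1 hAt).2 (ENNReal.ofReal ε) (by simpa using hε)).exists
  refine ⟨A k, hAo k, hk.le, ?_⟩
  obtain ⟨T, hTs, hTf, hTc⟩ := (isCompact_Icc (a := a) (b := b)).finite_cover_balls hδ0
  have h2 : ∀ᶠ n in l, ∀ t ∈ T, ∀ i ∈ Finset.range k, |u n t (z i) - u0 t (z i)| ≤ δ := by
    refine (eventually_all_finite hTf).2 fun t ht => (eventually_all_finset _).2 fun i _ => ?_
    have := (Metric.tendsto_nhds.1 (hlim t (hTs ht) (z i))) δ hδ0
    exact this.mono fun n hn => by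
      rw [Real.dist_eq] at hn
      exact hn.le
  filter_upwards [h, h2] with n hn hn2 t ht x hx
  obtain ⟨i, hi, hxi⟩ := mem_iUnion₂.1 hx
  obtain ⟨s, hs, hts⟩ := mem_iUnion₂.1 (hTc ht)
  have hi' : i ∈ Finset.range k := hi
  rw [Metric.mem_ball] at hxi hts
  rw [Real.dist_eq] at hts
  have e1 := hn.lip t ht s (hTs hs) x (z i)
  have e2 := hn2 s hs i hi'
  have e3 := h0.lip s (hTs hs) t ht (z i) x
  rw [abs_sub_comm s t, dist_comm (z i) x] at e3
  have e4 : L * (|t - s| + dist x (z i)) ≤ |L| * (2 * δ) := by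
    have : L * (|t - s| + dist x (z i)) ≤ |L| * (|t - s| + dist x (z i)) := by
      apply mul_le_mul_of_nonneg_right (le_abs_self L)
      positivity
    refine this.trans ?_
    gcongr
    linarith
  have e5 : |u n t x - u0 t x| ≤ |u n t x - u n s (z i)| + |u n s (z i) - u0 s (z i)|
      + |u0 s (z i) - u0 t x| := by
    have := abs_add_three (u n t x - u n s (z i)) (u n s (z i) - u0 s (z i))
      (u0 s (z i) - u0 t x)
    have e : u n t x - u n s (z i) + (u n s (z i) - u0 s (z i)) + (u0 s (z i) - u0 t x)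
        = u n t x - u0 t x := by ring
    rwa [e] at this
  linarith

/-- Weighted `L¹` convergence, uniformly in time. -/
theorem integral_unif [TopologicalSpace.SeparableSpace M] [MeasurableSpace M]
    [OpensMeasurableSpace M] {m : Measure M} {w : M → ℝ} (hw : Integrable w m) {l : Filter ι}
    {u : ι → ℝ → M → ℝ} {u0 : ℝ → M → ℝ} (h : ∀ᶠ n in l, LipB L B a b (u n))
    (h0 : LipB L B a b u0)
    (hlim : ∀ t ∈ Icc a b, ∀ x, Tendsto (fun n => u n t x) l (𝓝 (u0 t x)))
    {ε : ℝ} (hε : 0 < ε) :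
    ∀ᶠ n in l, ∀ t ∈ Icc a b, ∫ x, |w x| * |u n t x - u0 t x| ∂m ≤ ε := by
  set ν : Measure M := m.withDensity (fun x => ENNReal.ofReal |w x|) with hν
  have hwi : Integrable (fun x => |w x|) m := hw.abs
  have hlt : ∫⁻ x, ENNReal.ofReal |w x| ∂m < ∞ := by
    have := hwi.lintegral_lt_top
    exact this
  haveI : IsFiniteMeasure ν := ⟨by
    rw [hν, withDensity_apply _ MeasurableSet.univ]
    simpa using hlt⟩
  set D : ℝ := ∫ x, |w x| ∂m with hD
  have hD0 : 0 ≤ D := integral_nonneg fun x => abs_nonneg _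
  set ε' : ℝ := ε / (D + 2 * |B| + 1) with hε'
  have hε'0 : 0 < ε' := by positivity
  have hεε : ε' * D + 2 * |B| * ε' ≤ ε := by
    have : ε' * (D + 2 * |B| + 1) = ε := by rw [hε']; field_simp
    nlinarith
  obtain ⟨A, hA, hνA, hA2⟩ := unif_off_small ν h h0 hlim hε'0
  have hAm : MeasurableSet A := hA.measurableSet
  have hνA' : ∫ x in Aᶜ, |w x| ∂m ≤ ε' := by
    rw [hν, withDensity_apply _ hAm.compl] at hνA
    rw [← ofReal_integral_eq_lintegral_ofReal hwi.integrableOn
      (Eventually.of_forall fun x => abs_nonneg _)] at hνA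
    exact (ENNReal.ofReal_le_ofReal_iff hε'0.le).1 hνA
  filter_upwards [h, hA2] with n hn hn2 t ht
  have hc1 := hn.continuous ht
  have hc2 := h0.continuous ht
  have hdb : ∀ x, |u n t x - u0 t x| ≤ 2 * |B| := fun x => by
    have e1 := hn.bd t ht x
    have e2 := h0.bd t ht x
    have e3 := abs_sub (u n t x) (u0 t x)
    have e4 := le_abs_self B
    linarith
  have hdi : Integrable (fun x => |w x| * |u n t x - u0 t x|) m := by
    refine hwi.mul_bdd (c := 2 * |B|) ?_ (Eventually.of_forall fun x => ?_)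
    · exact ((hc1.sub hc2).abs).measurable.aestronglyMeasurable
    · rw [Real.norm_eq_abs, abs_abs]; exact hdb x
  rw [← integral_add_compl hAm hdi]
  have e1 : ∫ x in A, |w x| * |u n t x - u0 t x| ∂m ≤ ε' * D := by
    calc ∫ x in A, |w x| * |u n t x - u0 t x| ∂m ≤ ∫ x in A, |w x| * ε' ∂m := by
          refine setIntegral_mono_on hdi.integrableOn (hwi.mul_const _).integrableOn hAm
            fun x hx => ?_
          exact mul_le_mul_of_nonneg_left (hn2 t ht x hx) (abs_nonneg _)
      _ ≤ ∫ x, |w x| * ε' ∂m := by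
          refine setIntegral_le_integral (hwi.mul_const _) (Eventually.of_forall fun x => ?_)
          positivity
      _ = ε' * D := by rw [integral_mul_const, mul_comm]
  have e2 : ∫ x in Aᶜ, |w x| * |u n t x - u0 t x| ∂m ≤ 2 * |B| * ε' := by
    calc ∫ x in Aᶜ, |w x| * |u n t x - u0 t x| ∂m ≤ ∫ x in Aᶜ, |w x| * (2 * |B|) ∂m := by
          refine setIntegral_mono_on hdi.integrableOn (hwi.mul_const _).integrableOn
            hAm.compl fun x _ => ?_
          exact mul_le_mul_of_nonneg_left (hdb x) (abs_nonneg _)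
      _ = (∫ x in Aᶜ, |w x| ∂m) * (2 * |B|) := integral_mul_const _ _
      _ ≤ ε' * (2 * |B|) := by gcongr
      _ = 2 * |B| * ε' := by ring
  linarith

/-- Weighted `L²` convergence, uniformly in time. -/
theorem integral_unif_sq [TopologicalSpace.SeparableSpace M] [MeasurableSpace M]
    [OpensMeasurableSpace M] {m : Measure M} {w : M → ℝ} (hw : Integrable w m) {l : Filter ι}
    {u : ι → ℝ → M → ℝ} {u0 : ℝ → M → ℝ} (h : ∀ᶠ n in l, LipB L B a b (u n))
    (h0 : LipB L B a b u0)
    (hlim : ∀ t ∈ Icc a b, ∀ x, Tendsto (fun n => u n t x) l (𝓝 (u0 t x)))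
    {ε : ℝ} (hε : 0 < ε) :
    ∀ᶠ n in l, ∀ t ∈ Icc a b, ∫ x, |w x| * (u n t x - u0 t x) ^ 2 ∂m ≤ ε := by
  have h1 := integral_unif hw h h0 hlim (ε := ε / (2 * |B| + 1)) (by positivity)
  have hwi : Integrable (fun x => |w x|) m := hw.abs
  filter_upwards [h, h1] with n hn hn1 t ht
  have hc1 := hn.continuous ht
  have hc2 := h0.continuous ht
  have hdb : ∀ x, |u n t x - u0 t x| ≤ 2 * |B| := fun x => by
    have e1 := hn.bd t ht x
    have e2 := h0.bd t ht x
    have e3 := abs_sub (u n t x) (u0 t x)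
    have e4 := le_abs_self B
    linarith
  have hdi : Integrable (fun x => |w x| * |u n t x - u0 t x|) m := by
    refine hwi.mul_bdd (c := 2 * |B|) ?_ (Eventually.of_forall fun x => ?_)
    · exact ((hc1.sub hc2).abs).measurable.aestronglyMeasurable
    · rw [Real.norm_eq_abs, abs_abs]; exact hdb x
  calc ∫ x, |w x| * (u n t x - u0 t x) ^ 2 ∂m
      ≤ ∫ x, (|w x| * |u n t x - u0 t x|) * (2 * |B| + 1) ∂m := by
        refine integral_mono_of_nonneg (Eventually.of_forall fun x => by positivity)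
          (hdi.mul_const _) (Eventually.of_forall fun x => ?_)
        have e := hdb x
        have e0 := abs_nonneg (w x)
        have e1 := abs_nonneg (u n t x - u0 t x)
        have e2 : (u n t x - u0 t x) ^ 2 = |u n t x - u0 t x| * |u n t x - u0 t x| := by
          rw [← sq, sq_abs]
        simp only
        rw [e2, mul_assoc]
        gcongr
        linarith
    _ = (∫ x, |w x| * |u n t x - u0 t x| ∂m) * (2 * |B| + 1) := integral_mul_const _ _
    _ ≤ ε / (2 * |B| + 1) * (2 * |B| + 1) := by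
        gcongr
        exact hn1 t ht
    _ = ε := by field_simp

/-- Continuous convergence of the weighted `L²` distance to the limit potential. -/
theorem cc_sq [TopologicalSpace.SeparableSpace M] [MeasurableSpace M]
    [OpensMeasurableSpace M] {m : Measure M} {w : M → ℝ} (hw : Integrable w m) {l : Filter ι}
    {u : ι → ℝ → M → ℝ} {u0 : ℝ → M → ℝ} (h : ∀ᶠ n in l, LipB L B a b (u n))
    (h0 : LipB L B a b u0)
    (hlim : ∀ t ∈ Icc a b, ∀ x, Tendsto (fun n => u n t x) l (𝓝 (u0 t x))) :
    CC l (Icc a b) (fun n t => ∫ x, |w x| * (u n t x - u0 t x) ^ 2 ∂m) (fun _ => 0) := by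
  intro t ht
  rw [Metric.tendsto_nhds]
  intro ε hε
  have h1 := integral_unif_sq hw h h0 hlim (ε := ε / 2) (by positivity)
  have h2 : ∀ᶠ s in 𝓝[Icc a b] t, s ∈ Icc a b := eventually_mem_nhdsWithin
  filter_upwards [h1.prod_mk h2] with p hp
  have h3 := hp.1 p.2 hp.2
  rw [Real.dist_eq, sub_zero, abs_of_nonneg (integral_nonneg fun x => by positivity)]
  linarith

/-- Continuity of the limit (or of any fixed Lipschitz family) in weighted `L²`. -/
theorem LipB.tendsto_sq [MeasurableSpace M] [OpensMeasurableSpace M] {m : Measure M} {w : M → ℝ}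
    (hw : Integrable w m) {v : ℝ → M → ℝ} (h0 : LipB L B a b v) {t : ℝ} (ht : t ∈ Icc a b) :
    Tendsto (fun s => ∫ x, |w x| * (v s x - v t x) ^ 2 ∂m) (𝓝[Icc a b] t) (𝓝 0) := by
  have hwi : Integrable (fun x => |w x|) m := hw.abs
  have h1 : Tendsto (fun s : ℝ => (∫ x, |w x| ∂m) * (L * |s - t|) ^ 2) (𝓝[Icc a b] t)
      (𝓝 ((∫ x, |w x| ∂m) * (L * |t - t|) ^ 2)) := by
    have : Continuous fun s : ℝ => (∫ x, |w x| ∂m) * (L * |s - t|) ^ 2 := by fun_prop
    exact (this.tendsto t).mono_left nhdsWithin_le_nhds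
  simp only [sub_self, abs_zero, mul_zero, ne_eq, OfNat.ofNat_ne_zero, not_false_eq_true,
    zero_pow] at h1
  refine squeeze_zero' (Eventually.of_forall fun s => integral_nonneg fun x => by positivity)
    ?_ h1
  filter_upwards [self_mem_nhdsWithin] with s hs
  rw [← integral_mul_const]
  refine integral_mono_of_nonneg (Eventually.of_forall fun x => by positivity)
    (hwi.mul_const _) (Eventually.of_forall fun x => ?_)
  have e := h0.lip s hs t ht x x
  rw [dist_self, add_zero] at e
  have e2 : (v s x - v t x) ^ 2 ≤ (L * |s - t|) ^ 2 := by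
    rw [← sq_abs]
    exact pow_le_pow_left₀ (abs_nonneg _) e 2
  exact mul_le_mul_of_nonneg_left e2 (abs_nonneg _)

/-- Convergence of `∫ g u_n(t)` for integrable `g`, continuously in time. -/
theorem cc_integral_mul [TopologicalSpace.SeparableSpace M] [MeasurableSpace M]
    [OpensMeasurableSpace M] {m : Measure M} {g : M → ℝ} (hg : Integrable g m) {l : Filter ι}
    {u : ι → ℝ → M → ℝ} {u0 : ℝ → M → ℝ} (h : ∀ᶠ n in l, LipB L B a b (u n))
    (h0 : LipB L B a b u0)
    (hlim : ∀ t ∈ Icc a b, ∀ x, Tendsto (fun n => u n t x) l (𝓝 (u0 t x))) :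
    CC l (Icc a b) (fun n t => ∫ x, g x * u n t x ∂m) (fun t => ∫ x, g x * u0 t x ∂m) := by
  have key : ∀ v : ℝ → M → ℝ, LipB L B a b v → ∀ t ∈ Icc a b,
      Integrable (fun x => g x * v t x) m := by
    intro v hv t ht
    refine hg.mul_bdd (c := B) (hv.continuous ht).measurable.aestronglyMeasurable
      (Eventually.of_forall fun x => ?_)
    rw [Real.norm_eq_abs]
    exact hv.bd t ht x
  have hcont : ContinuousOn (fun t => ∫ x, g x * u0 t x ∂m) (Icc a b) := by
    intro t ht
    rw [ContinuousWithinAt, tendsto_iff_dist_tendsto_zero]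
    have h1 : Tendsto (fun s : ℝ => (∫ x, |g x| ∂m) * (L * |s - t|)) (𝓝[Icc a b] t)
        (𝓝 ((∫ x, |g x| ∂m) * (L * |t - t|))) := by
      have : Continuous fun s : ℝ => (∫ x, |g x| ∂m) * (L * |s - t|) := by fun_prop
      exact (this.tendsto t).mono_left nhdsWithin_le_nhds
    simp only [sub_self, abs_zero, mul_zero] at h1
    refine squeeze_zero' (Eventually.of_forall fun s => dist_nonneg) ?_ h1
    filter_upwards [self_mem_nhdsWithin] with s hs
    rw [Real.dist_eq, ← integral_sub (key u0 h0 s hs) (key u0 h0 t ht), ← integral_mul_const]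
    refine (abs_integral_le_integral_abs).trans ?_
    refine integral_mono_of_nonneg (Eventually.of_forall fun x => abs_nonneg _)
      (hg.abs.mul_const _) (Eventually.of_forall fun x => ?_)
    have e := h0.lip s hs t ht x x
    rw [dist_self, add_zero] at e
    simp only
    rw [← mul_sub, abs_mul]
    exact mul_le_mul_of_nonneg_left e (abs_nonneg _)
  refine CC.of_dist_le hcont (e := fun n t => ∫ x, |g x| * |u n t x - u0 t x| ∂m) ?_ ?_
  · filter_upwards [h] with n hn t ht
    rw [Real.dist_eq, ← integral_sub (key _ hn t ht) (key u0 h0 t ht)]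
    refine (abs_integral_le_integral_abs).trans (le_of_eq ?_)
    refine integral_congr_ae (Eventually.of_forall fun x => ?_)
    simp only
    rw [← mul_sub, abs_mul]
  · intro t ht
    rw [Metric.tendsto_nhds]
    intro ε hε
    have h1 := integral_unif hg h h0 hlim (ε := ε / 2) (by positivity)
    have h2 : ∀ᶠ s in 𝓝[Icc a b] t, s ∈ Icc a b := eventually_mem_nhdsWithin
    filter_upwards [h1.prod_mk h2] with p hp
    have h3 := hp.1 p.2 hp.2
    rw [Real.dist_eq, sub_zero, abs_of_nonneg (integral_nonneg fun x => by positivity)]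
    linarith

end pot

end Vale.Agent.P233.UST
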