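import Vale.Agent.P233.H196.UST2
import Vale.Agent.P233.H415.ULim

/-! P233, block UST (helper196), part 3: weakly and strongly convergent curves of classes
(continuous convergence, index `(n, t)`, filter `l ×ˢ 𝓝[S] t₀`), pairing, integral equations,
domination. -/

set_option linter.all false

open MeasureTheory Filter Topology Set
open scoped ENNReal NNReal InnerProductSpace

namespace Vale.Agent.P233.UST

variable {M : Type*} [MeasurableSpace M] {m : Measure M}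

/-- Weak continuous convergence of curves of classes. -/
def WCC {ι X : Type*} [TopologicalSpace X] (l : Filter ι) (S : Set X)
    (f : ι → X → (M →ₘ[m] ℝ)) (f0 : X → (M →ₘ[m] ℝ)) : Prop :=
  ∀ t ∈ S, WConv (l ×ˢ 𝓝[S] t) (fun p : ι × X => f p.1 p.2) (f0 t)

/-- Strong continuous convergence of curves of classes. -/
def SCC {ι X : Type*} [TopologicalSpace X] (l : Filter ι) (S : Set X)
    (f : ι → X → (M →ₘ[m] ℝ)) (f0 : X → (M →ₘ[m] ℝ)) : Prop :=
  ∀ t ∈ S, SConv (l ×ˢ 𝓝[S] t) (fun p : ι × X => f p.1 p.2) (f0 t)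

section gen

variable {ι X : Type*} [TopologicalSpace X] {l : Filter ι} {S : Set X}
variable {f g : ι → X → (M →ₘ[m] ℝ)} {f0 g0 : X → (M →ₘ[m] ℝ)}

theorem tendsto_slice {t : X} (ht : t ∈ S) :
    Tendsto (fun n : ι => (n, t)) l (l ×ˢ 𝓝[S] t) :=
  tendsto_id.prodMk (tendsto_const_nhdsWithin ht)

theorem WCC.wconv (h : WCC l S f f0) {t : X} (ht : t ∈ S) :
    WConv l (fun n => f n t) (f0 t) := (h t ht).comp (tendsto_slice ht)

theorem SCC.sconv (h : SCC l S f f0) {t : X} (ht : t ∈ S) :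
    SConv l (fun n => f n t) (f0 t) := (h t ht).comp (tendsto_slice ht)

theorem WCC.mono (h : WCC l S f f0) {T : Set X} (hT : T ⊆ S) : WCC l T f f0 := fun t ht =>
  (h t (hT ht)).mono (Filter.prod_mono le_rfl (nhdsWithin_mono _ hT))

theorem SCC.mono (h : SCC l S f f0) {T : Set X} (hT : T ⊆ S) : SCC l T f f0 := fun t ht =>
  (h t (hT ht)).mono (Filter.prod_mono le_rfl (nhdsWithin_mono _ hT))

theorem WCC.mono_filter (h : WCC l S f f0) {l' : Filter ι} (hl : l' ≤ l) : WCC l' S f f0 :=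
  fun t ht => (h t ht).mono (Filter.prod_mono hl le_rfl)

theorem SCC.mono_filter (h : SCC l S f f0) {l' : Filter ι} (hl : l' ≤ l) : SCC l' S f f0 :=
  fun t ht => (h t ht).mono (Filter.prod_mono hl le_rfl)

theorem WCC.cc (h : WCC l S f f0) {G : M →ₘ[m] ℝ} (hG : MemLp G 2 m) :
    CC l S (fun n t => I (G * f n t)) (fun t => I (G * f0 t)) := fun t ht => (h t ht).lim G hG

theorem WCC.add (h : WCC l S f f0) (h' : WCC l S g g0) :
    WCC l S (fun n t => f n t + g n t) (fun t => f0 t + g0 t) := fun t ht => (h t ht).add (h' t ht)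

theorem WCC.sub (h : WCC l S f f0) (h' : WCC l S g g0) :
    WCC l S (fun n t => f n t - g n t) (fun t => f0 t - g0 t) := fun t ht => (h t ht).sub (h' t ht)

theorem WCC.smul (c : ℝ) (h : WCC l S f f0) :
    WCC l S (fun n t => c • f n t) (fun t => c • f0 t) := fun t ht => (h t ht).smul c

theorem WCC.mul_top (h : WCC l S f f0) {G : M →ₘ[m] ℝ} (hG : MemLp G ∞ m) :
    WCC l S (fun n t => G * f n t) (fun t => G * f0 t) := fun t ht => (h t ht).mul_top hG

theorem SCC.add (h : SCC l S f f0) (h' : SCC l S g g0) :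
    SCC l S (fun n t => f n t + g n t) (fun t => f0 t + g0 t) := fun t ht => (h t ht).add (h' t ht)

theorem SCC.sub (h : SCC l S f f0) (h' : SCC l S g g0) :
    SCC l S (fun n t => f n t - g n t) (fun t => f0 t - g0 t) := fun t ht => (h t ht).sub (h' t ht)

theorem SCC.smul (c : ℝ) (h : SCC l S f f0) :
    SCC l S (fun n t => c • f n t) (fun t => c • f0 t) := fun t ht => (h t ht).smul c

theorem SCC.wcc (h : SCC l S f f0) (h0 : ∀ t ∈ S, MemLp (f0 t) 2 m) : WCC l S f f0 :=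
  fun t ht => (h t ht).wconv (h0 t ht)

/-- Weak times strong: the pairing converges continuously. -/
theorem SCC.pair (hg : SCC l S g g0) (hG : ∀ t ∈ S, MemLp (g0 t) 2 m) (hf : WCC l S f f0) :
    CC l S (fun n t => I (f n t * g n t)) (fun t => I (f0 t * g0 t)) := fun t ht =>
  (hg t ht).tendsto_I_mul (hG t ht) (hf t ht)

theorem SCC.mul_wcc [l.NeBot] (hg : SCC l S g g0) {K : ℝ}
    (hK : ∀ᶠ n in l, ∀ t ∈ S, ∀ᵐ x ∂m, |g n t x| ≤ K) (hf : WCC l S f f0) :
    WCC l S (fun n t => g n t * f n t) (fun t => g0 t * f0 t) := by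
  intro t ht
  have h2 : ∀ᶠ s in 𝓝[S] t, s ∈ S := eventually_mem_nhdsWithin
  haveI : (𝓝[S] t).NeBot := mem_closure_iff_nhdsWithin_neBot.1 (subset_closure ht)
  refine (hg t ht).mul_wconv (K := K) ?_ (hf t ht)
  filter_upwards [hK.prod_mk h2] with p hp
  exact hp.1 _ hp.2

/-- A curve of classes which is continuous in `L²`. -/
theorem SCC.of_continuous {F : X → (M →ₘ[m] ℝ)}
    (h : ∀ t ∈ S, SConv (𝓝[S] t) F (F t)) : SCC l S (fun _ t => F t) F := fun t ht =>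
  (h t ht).comp tendsto_snd

/-- Curves that do not depend on time. -/
theorem SCC.of_sconv {c : ι → (M →ₘ[m] ℝ)} {c0 : M →ₘ[m] ℝ} (h : SConv l c c0) :
    SCC l S (fun n _ => c n) (fun _ => c0) := fun _ _ => h.comp tendsto_fst

/-- The limit of a strongly convergent family of curves is continuous in `L²`. -/
theorem SCC.continuous [l.NeBot] (h : SCC l S f f0) {t : X} (ht : t ∈ S) :
    SConv (𝓝[S] t) f0 (f0 t) := by
  have h2 : ∀ᶠ s in 𝓝[S] t, s ∈ S := eventually_mem_nhdsWithin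
  have key : ∀ ε > 0, ∀ᶠ s in 𝓝[S] t, MemLp (f0 s - f0 t) 2 m ∧
      I ((f0 s - f0 t) ^ 2) ≤ ε := by
    intro ε hε
    have h1 : ∀ᶠ p : ι × X in l ×ˢ 𝓝[S] t, MemLp (f p.1 p.2 - f0 t) 2 m ∧
        I ((f p.1 p.2 - f0 t) ^ 2) ≤ ε / 4 :=
      (h t ht).mem.and ((h t ht).lim.eventually (ge_mem_nhds (by positivity)))
    obtain ⟨A, hA, B, hB, hAB⟩ := eventually_prod_iff.1 h1
    filter_upwards [hB, h2] with s hs hsS
    have h3 := h.sconv hsS
    obtain ⟨n, hn1, hn2, hn3⟩ := (hA.and (h3.mem.and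
      (h3.lim.eventually (ge_mem_nhds (show (0:ℝ) < ε / 4 by positivity))))).exists
    obtain ⟨e1, e2⟩ := hAB hn1 hs
    have e3 : MemLp (f0 s - f0 t) 2 m := by
      have := mem_sub e1 hn2
      rwa [show f n s - f0 t - (f n s - f0 s) = f0 s - f0 t by abel] at this
    refine ⟨e3, ?_⟩
    have e4 := I_sq_add_le e1 (mem_neg hn2)
    rw [show f n s - f0 t + -(f n s - f0 s) = f0 s - f0 t by abel] at e4
    have e5 : (-(f n s - f0 s)) ^ 2 = (f n s - f0 s) ^ 2 := by ring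
    rw [e5] at e4
    linarith
  refine ⟨(key 1 one_pos).mono fun s hs => hs.1, ?_⟩
  rw [Metric.tendsto_nhds]
  intro ε hε
  filter_upwards [key (ε / 2) (by positivity)] with s hs
  rw [Real.dist_eq, sub_zero, abs_of_nonneg (I_sq_nonneg _)]
  linarith [hs.2]

/-- Continuity in time of the weak limit. -/
theorem WCC.continuousOn [l.NeBot] (h : WCC l S f f0) {G : M →ₘ[m] ℝ} (hG : MemLp G 2 m) :
    ContinuousOn (fun t => I (G * f0 t)) S := (h.cc hG).continuousOn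

theorem WCC.unique [l.NeBot] (h : WCC l S f f0) (h' : WCC l S f g0) {t : X} (ht : t ∈ S) :
    f0 t = g0 t := (h.wconv ht).unique (h'.wconv ht)

/-- Pointwise (in time) weak convergence, a uniform bound, and equicontinuity of `t ↦ ∫ G f_n(t)`
for `G` in a dense set give weak continuous convergence. -/
theorem WCC.of_dense {K : ℝ} (hb : ∀ᶠ n in l, ∀ t ∈ S, MemLp (f n t) 2 m ∧ I (f n t ^ 2) ≤ K)
    (hp : ∀ t ∈ S, WConv l (fun n => f n t) (f0 t)) {D : Set (M →ₘ[m] ℝ)}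
    (hD : ∀ G : M →ₘ[m] ℝ, MemLp G 2 m → ∀ ε > 0, ∃ H ∈ D, MemLp H 2 m ∧ I ((G - H) ^ 2) < ε)
    (he : ∀ G ∈ D, MemLp G 2 m → ∀ t ∈ S, ∀ ε > 0, ∀ᶠ p : ι × X in l ×ˢ 𝓝[S] t,
      |I (G * f p.1 p.2) - I (G * f p.1 t)| ≤ ε) : WCC l S f f0 := by
  intro t ht
  have h2 : ∀ᶠ s in 𝓝[S] t, s ∈ S := eventually_mem_nhdsWithin
  refine WConv.of_dense ⟨K, ?_⟩ (hp t ht).mem hD fun G hG hG2 => ?_
  · filter_upwards [hb.prod_mk h2] with p hp
    exact hp.1 _ hp.2
  · have h1 := CC.of_equicontinuous (l := l) (S := S) (F := fun n t => I (G * f n t))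
      (F0 := fun t => I (G * f0 t)) (fun s hs => (hp s hs).lim G hG2)
      (fun s hs ε hε => by
        have := he G hG hG2 s hs ε hε
        simpa [Real.dist_eq] using this)
    exact h1 t ht

end gen

/-- Lipschitz dependence on time, for a dense set of test classes. -/
theorem WCC.of_lipschitz {ι : Type*} {l : Filter ι} {a b K : ℝ}
    {f : ι → ℝ → (M →ₘ[m] ℝ)} {f0 : ℝ → (M →ₘ[m] ℝ)}
    (hb : ∀ᶠ n in l, ∀ t ∈ Icc a b, MemLp (f n t) 2 m ∧ I (f n t ^ 2) ≤ K)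
    (hp : ∀ t ∈ Icc a b, WConv l (fun n => f n t) (f0 t)) {D : Set (M →ₘ[m] ℝ)}
    (hD : ∀ G : M →ₘ[m] ℝ, MemLp G 2 m → ∀ ε > 0, ∃ H ∈ D, MemLp H 2 m ∧ I ((G - H) ^ 2) < ε)
    (he : ∀ G ∈ D, MemLp G 2 m → ∃ L : ℝ, ∀ᶠ n in l, ∀ s ∈ Icc a b, ∀ t ∈ Icc a b,
      |I (G * f n s) - I (G * f n t)| ≤ L * |s - t|) : WCC l (Icc a b) f f0 := by
  refine WCC.of_dense hb hp hD fun G hG hG2 t ht ε hε => ?_
  obtain ⟨L, hL⟩ := he G hG hG2
  have h2 : ∀ᶠ s in 𝓝[Icc a b] t, s ∈ Icc a b := eventually_mem_nhdsWithin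
  have h3 : ∀ᶠ s in 𝓝[Icc a b] t, dist s t < ε / (|L| + 1) :=
    mem_nhdsWithin_of_mem_nhds (Metric.ball_mem_nhds t (by positivity))
  filter_upwards [hL.prod_mk (h2.and h3)] with p hp
  have h4 := hp.1 _ hp.2.1 _ ht
  have h5 := hp.2.2
  rw [Real.dist_eq] at h5
  calc |I (G * f p.1 p.2) - I (G * f p.1 t)| ≤ L * |p.2 - t| := h4
    _ ≤ (|L| + 1) * |p.2 - t| := by
        gcongr
        linarith [le_abs_self L]
    _ ≤ (|L| + 1) * (ε / (|L| + 1)) := by gcongr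
    _ = ε := by field_simp

/-- Existence of the limit curve along an ultrafilter. -/
theorem exists_wconv_curve {ι X : Type*} {U : Ultrafilter ι} {S : Set X} {K : ℝ}
    {f : ι → X → (M →ₘ[m] ℝ)}
    (hb : ∀ t ∈ S, ∀ᶠ n in (U : Filter ι), MemLp (f n t) 2 m ∧ I (f n t ^ 2) ≤ K) :
    ∀ t ∈ S, WConv (U : Filter ι) (fun n => f n t) (wlim U fun n => f n t) := fun t ht =>
  BddL2.wconv ⟨K, hb t ht⟩

/-- Passage to the limit in an integral equation: weakly convergent curve `f`, right hand side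
`∫ (G_n(r) f_n(r)) + e_n(r)` with `G_n → G_0` strongly and `e_n → 0`, uniformly. -/
theorem integral_eq_limit {ι : Type*} {l : Filter ι} [l.NeBot] {a b : ℝ} (hab : a ≤ b)
    {f G : ι → ℝ → (M →ₘ[m] ℝ)} {f0 G0 : ℝ → (M →ₘ[m] ℝ)} {e : ι → ℝ → ℝ}
    (hf : WCC l (Icc a b) f f0) (hG : SCC l (Icc a b) G G0)
    (hG2 : ∀ t ∈ Icc a b, MemLp (G0 t) 2 m) (he : CC l (Icc a b) e (fun _ => 0))
    {B : M →ₘ[m] ℝ} (hB : MemLp B 2 m)
    (hint : ∀ᶠ n in l, IntervalIntegrable (fun r => I (f n r * G n r) + e n r) volume a b)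
    (heq : ∀ᶠ n in l, I (B * f n b) - I (B * f n a) = ∫ r in a..b, (I (f n r * G n r) + e n r)) :
    I (B * f0 b) - I (B * f0 a) = ∫ r in a..b, I (f0 r * G0 r) := by
  have h1 := (hG.pair hG2 hf).add he
  have h2 := h1.tendsto_intervalIntegral hab hint
  simp only [add_zero] at h2
  have h3 := ((hf.wconv (right_mem_Icc.2 hab)).lim B hB).sub
    ((hf.wconv (left_mem_Icc.2 hab)).lim B hB)
  exact tendsto_nhds_unique (h3.congr' heq) h2

/-- The same for an inequality. -/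
theorem integral_le_limit {ι : Type*} {l : Filter ι} [l.NeBot] {a b : ℝ} (hab : a ≤ b)
    {f G : ι → ℝ → (M →ₘ[m] ℝ)} {f0 G0 : ℝ → (M →ₘ[m] ℝ)} {e : ι → ℝ → ℝ}
    (hf : WCC l (Icc a b) f f0) (hG : SCC l (Icc a b) G G0)
    (hG2 : ∀ t ∈ Icc a b, MemLp (G0 t) 2 m) (he : CC l (Icc a b) e (fun _ => 0))
    {B : M →ₘ[m] ℝ} (hB : MemLp B 2 m)
    (hint : ∀ᶠ n in l, IntervalIntegrable (fun r => I (f n r * G n r) + e n r) volume a b)
    (heq : ∀ᶠ n in l, I (B * f n b) - I (B * f n a) ≤ ∫ r in a..b, (I (f n r * G n r) + e n r)) :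
    I (B * f0 b) - I (B * f0 a) ≤ ∫ r in a..b, I (f0 r * G0 r) := by
  have h1 := (hG.pair hG2 hf).add he
  have h2 := h1.tendsto_intervalIntegral hab hint
  simp only [add_zero] at h2
  have h3 := ((hf.wconv (right_mem_Icc.2 hab)).lim B hB).sub
    ((hf.wconv (left_mem_Icc.2 hab)).lim B hB)
  exact le_of_tendsto_of_tendsto h3 h2 heq

end Vale.Agent.P233.UST
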