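import Vale.Agent.P233.H196.UST3

/-! P233, block UST (helper196), part 4: from local convergence (with cut-offs) and domination to
global convergence; strong convergence of `⟨∇b,∇u_n⟩`. -/

set_option linter.all false

open MeasureTheory Filter Topology Set
open scoped ENNReal NNReal InnerProductSpace

namespace Vale.Agent.P233.UST

variable {M : Type*} [MeasurableSpace M] {m : Measure M} {ι : Type*} {l : Filter ι}

/-- truncation of an integrable class: the excess is small -/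
theorem exists_trunc_small {h : M →ₘ[m] ℝ} (hh : MemLp h 1 m) {ε : ℝ} (hε : 0 < ε) :
    ∃ Λ : ℝ, 0 ≤ Λ ∧ ∫ x, max (|h x| - Λ) 0 ∂m ≤ ε := by
  have hi : Integrable h m := memLp_one_iff_integrable.1 hh
  have h1 : Tendsto (fun n : ℕ => ∫ x, max (|h x| - (n : ℝ)) 0 ∂m) atTop (𝓝 (∫ x, (0 : ℝ) ∂m)) := by
    refine tendsto_integral_of_dominated_convergence (fun x => |h x|) ?_ hi.abs ?_ ?_
    · intro n
      exact ((hi.abs.aestronglyMeasurable.sub aestronglyMeasurable_const).sup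
        aestronglyMeasurable_const)
    · intro n
      refine Eventually.of_forall fun x => ?_
      rw [Real.norm_eq_abs, abs_of_nonneg (le_max_right _ _)]
      refine max_le ?_ (abs_nonneg _)
      have : (0 : ℝ) ≤ n := Nat.cast_nonneg n
      linarith
    · refine Eventually.of_forall fun x => ?_
      obtain ⟨N, hN⟩ := exists_nat_ge (|h x|)
      refine tendsto_const_nhds.congr' ?_
      filter_upwards [eventually_ge_atTop N] with n hn
      have : (N : ℝ) ≤ n := by exact_mod_cast hn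
      rw [max_eq_right (by linarith)]
  rw [integral_zero] at h1
  obtain ⟨n, hn⟩ := (h1.eventually (ge_mem_nhds hε)).exists
  exact ⟨n, Nat.cast_nonneg n, hn⟩

/-- the mass outside the cut-offs is small -/
theorem exists_cut_small {h : M →ₘ[m] ℝ} (hh : MemLp h 1 m) {ζ : ℕ → (M →ₘ[m] ℝ)}
    (h0 : ∀ j, ∀ᵐ x ∂m, |ζ j x| ≤ 1) (h1 : ∀ᵐ x ∂m, Tendsto (fun j => ζ j x) atTop (𝓝 1))
    {ε : ℝ} (hε : 0 < ε) : ∃ j, ∫ x, |h x| * (1 - ζ j x ^ 2) ∂m ≤ ε := by
  have hi : Integrable h m := memLp_one_iff_integrable.1 hh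
  have h2 : Tendsto (fun j : ℕ => ∫ x, |h x| * (1 - ζ j x ^ 2) ∂m) atTop
      (𝓝 (∫ x, (0 : ℝ) ∂m)) := by
    refine tendsto_integral_of_dominated_convergence (fun x => |h x|) ?_ hi.abs ?_ ?_
    · intro j
      exact hi.abs.aestronglyMeasurable.mul
        (aestronglyMeasurable_const.sub ((ζ j).aestronglyMeasurable.pow 2))
    · intro j
      filter_upwards [h0 j] with x hx
      have e1 : ζ j x ^ 2 ≤ 1 := by
        rw [← sq_abs]; nlinarith [abs_nonneg (ζ j x)]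
      have e2 : 0 ≤ ζ j x ^ 2 := sq_nonneg _
      rw [Real.norm_eq_abs, abs_mul, abs_abs, abs_of_nonneg (by linarith : 0 ≤ 1 - ζ j x ^ 2)]
      nlinarith [abs_nonneg (h x)]
    · filter_upwards [h1] with x hx
      have e1 : Tendsto (fun j => |h x| * (1 - ζ j x ^ 2)) atTop (𝓝 (|h x| * (1 - 1 ^ 2))) :=
        ((hx.pow 2).const_sub 1).const_mul _
      simpa using e1
  rw [integral_zero] at h2
  exact (h2.eventually (ge_mem_nhds hε)).exists

/-- From convergence with cut-off weights `ζ_j²` to convergence with an arbitrary integrable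
weight `h`, for bounded nonnegative classes `k_n`. -/
theorem tendsto_I_weight {k : ι → (M →ₘ[m] ℝ)} {K : ℝ}
    (hk : ∀ᶠ n in l, 0 ≤ k n ∧ ∀ᵐ x ∂m, k n x ≤ K) {ζ : ℕ → (M →ₘ[m] ℝ)}
    (h0 : ∀ j, ∀ᵐ x ∂m, |ζ j x| ≤ 1) (hζ2 : ∀ j, MemLp (ζ j) 2 m)
    (h1 : ∀ᵐ x ∂m, Tendsto (fun j => ζ j x) atTop (𝓝 1))
    (hlim : ∀ j, Tendsto (fun n => I (ζ j ^ 2 * k n)) l (𝓝 0)) {h : M →ₘ[m] ℝ}
    (hh : MemLp h 1 m) : Tendsto (fun n => I (h * k n)) l (𝓝 0) := by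
  have hi : Integrable h m := memLp_one_iff_integrable.1 hh
  rw [Metric.tendsto_nhds]
  intro ε hε
  set K' : ℝ := max K 0 + 1 with hK'
  have hK'0 : 0 < K' := by positivity
  obtain ⟨Λ, hΛ0, hΛ⟩ := exists_trunc_small hh (ε := ε / (4 * K')) (by positivity)
  obtain ⟨j, hj⟩ := exists_cut_small hh h0 h1 (ε := ε / (4 * K')) (by positivity)
  have h3 := (hlim j).eventually (ge_mem_nhds (show (0 : ℝ) < ε / (4 * (Λ + 1)) by positivity))
  filter_upwards [hk, h3] with n hn hn3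
  obtain ⟨hn1, hn2⟩ := hn
  rw [Real.dist_eq, sub_zero]
  have hkt : MemLp (k n) ∞ m := by
    rw [mem_top_iff]
    refine ⟨K', ?_⟩
    filter_upwards [nonneg_iff_ae.1 hn1, hn2] with x a1 a2
    rw [abs_of_nonneg a1]
    linarith [le_max_left K 0]
  have i1 : Integrable (fun x => max (|h x| - Λ) 0) m := by
    refine hi.abs.mono ((hi.abs.aestronglyMeasurable.sub aestronglyMeasurable_const).sup
        aestronglyMeasurable_const) (Eventually.of_forall fun x => ?_)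
    rw [Real.norm_eq_abs, Real.norm_eq_abs, abs_of_nonneg (le_max_right _ _), abs_abs]
    exact max_le (by linarith) (abs_nonneg _)
  have i2 : Integrable (fun x => |h x| * (1 - ζ j x ^ 2)) m := by
    refine hi.abs.mul_bdd (c := 1)
      (aestronglyMeasurable_const.sub ((ζ j).aestronglyMeasurable.pow 2)) ?_
    filter_upwards [h0 j] with x hx
    have e1 : ζ j x ^ 2 ≤ 1 := by
      rw [← sq_abs]; nlinarith [abs_nonneg (ζ j x)]
    have e2 : 0 ≤ ζ j x ^ 2 := sq_nonneg _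
    rw [Real.norm_eq_abs, abs_of_nonneg (by linarith : 0 ≤ 1 - ζ j x ^ 2)]
    linarith
  have m3 : MemLp (ζ j ^ 2 * k n : M →ₘ[m] ℝ) 1 m := mem_top_mul (mem_sq (hζ2 j)) hkt
  have i3 : Integrable (ζ j ^ 2 * k n : M →ₘ[m] ℝ) m := memLp_one_iff_integrable.1 m3
  have m4 : MemLp (h * k n : M →ₘ[m] ℝ) 1 m := mem_top_mul hh hkt
  have i4 : Integrable (h * k n : M →ₘ[m] ℝ) m := memLp_one_iff_integrable.1 m4
  have key : |I (h * k n)| ≤ K' * ∫ x, max (|h x| - Λ) 0 ∂m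
      + Λ * I (ζ j ^ 2 * k n) + K' * ∫ x, |h x| * (1 - ζ j x ^ 2) ∂m := by
    have e0 : |I (h * k n)| ≤ ∫ x, |(h * k n : M →ₘ[m] ℝ) x| ∂m := abs_integral_le_integral_abs
    refine e0.trans ?_
    have j1 : Integrable (fun x => K' * max (|h x| - Λ) 0 + Λ * (ζ j ^ 2 * k n : M →ₘ[m] ℝ) x) m :=
      (i1.const_mul _).add (i3.const_mul _)
    have j2 : Integrable (fun x => K' * max (|h x| - Λ) 0 + Λ * (ζ j ^ 2 * k n : M →ₘ[m] ℝ) x
        + K' * (|h x| * (1 - ζ j x ^ 2))) m := j1.add (i2.const_mul _)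
    have e1 : K' * ∫ x, max (|h x| - Λ) 0 ∂m + Λ * I (ζ j ^ 2 * k n)
        + K' * ∫ x, |h x| * (1 - ζ j x ^ 2) ∂m
        = ∫ x, (K' * max (|h x| - Λ) 0 + Λ * (ζ j ^ 2 * k n : M →ₘ[m] ℝ) x
        + K' * (|h x| * (1 - ζ j x ^ 2))) ∂m := by
      rw [integral_add j1 (i2.const_mul _), integral_add (i1.const_mul _) (i3.const_mul _),
        integral_const_mul, integral_const_mul, integral_const_mul]
      rfl
    rw [e1]
    refine integral_mono_ae i4.abs j2 ?_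
    filter_upwards [nonneg_iff_ae.1 hn1, hn2, mul_ae h (k n), mul_ae (ζ j ^ 2) (k n),
      sq_ae (ζ j), h0 j] with x a1 a2 a3 a4 a5 a6
    rw [a3, a4, a5, abs_mul, abs_of_nonneg a1]
    have e1 : ζ j x ^ 2 ≤ 1 := by
      rw [← sq_abs]; nlinarith [abs_nonneg (ζ j x)]
    have e2 : 0 ≤ ζ j x ^ 2 := sq_nonneg _
    have e3 : k n x ≤ K' := by linarith [le_max_left K 0]
    have e4 : 0 ≤ |h x| := abs_nonneg _
    have e5 : |h x| ≤ max (|h x| - Λ) 0 + Λ := by linarith [le_max_left (|h x| - Λ) 0]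
    have e6 : 0 ≤ max (|h x| - Λ) 0 := le_max_right _ _
    -- |h| k = |h| ζ² k + |h| (1 - ζ²) k
    have e7 : |h x| * k n x = |h x| * ζ j x ^ 2 * k n x + |h x| * (1 - ζ j x ^ 2) * k n x := by
      ring
    have e8 : |h x| * (1 - ζ j x ^ 2) * k n x ≤ K' * (|h x| * (1 - ζ j x ^ 2)) := by
      have : 0 ≤ |h x| * (1 - ζ j x ^ 2) := by nlinarith
      nlinarith
    have e9 : |h x| * ζ j x ^ 2 * k n x ≤ K' * max (|h x| - Λ) 0 + Λ * (ζ j x ^ 2 * k n x) := by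
      have b1 : |h x| * (ζ j x ^ 2 * k n x) ≤ (max (|h x| - Λ) 0 + Λ) * (ζ j x ^ 2 * k n x) :=
        mul_le_mul_of_nonneg_right e5 (mul_nonneg e2 a1)
      have b2 : ζ j x ^ 2 * k n x ≤ K' := by nlinarith
      have b3 : max (|h x| - Λ) 0 * (ζ j x ^ 2 * k n x) ≤ max (|h x| - Λ) 0 * K' :=
        mul_le_mul_of_nonneg_left b2 e6
      nlinarith
    linarith
  have k1 : K' * ∫ x, max (|h x| - Λ) 0 ∂m ≤ ε / 4 := by
    calc K' * ∫ x, max (|h x| - Λ) 0 ∂m ≤ K' * (ε / (4 * K')) := by gcongr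
      _ = ε / 4 := by field_simp
  have k2 : K' * ∫ x, |h x| * (1 - ζ j x ^ 2) ∂m ≤ ε / 4 := by
    calc K' * ∫ x, |h x| * (1 - ζ j x ^ 2) ∂m ≤ K' * (ε / (4 * K')) := by gcongr
      _ = ε / 4 := by field_simp
  have k3 : Λ * I (ζ j ^ 2 * k n) ≤ ε / 4 := by
    have hn0 : 0 ≤ I (ζ j ^ 2 * k n) := by
      refine I_nonneg ?_
      rw [nonneg_iff_ae]
      filter_upwards [nonneg_iff_ae.1 hn1, mul_ae (ζ j ^ 2) (k n), sq_ae (ζ j)] with x a1 a2 a3
      rw [a2, a3]; exact mul_nonneg (sq_nonneg _) a1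
    calc Λ * I (ζ j ^ 2 * k n) ≤ (Λ + 1) * I (ζ j ^ 2 * k n) := by nlinarith
      _ ≤ (Λ + 1) * (ε / (4 * (Λ + 1))) := by gcongr
      _ = ε / 4 := by field_simp
  linarith

/-- Strong convergence in `L²` of `⟨∇b,∇u_n⟩` when the gradients are bounded and converge locally
strongly. -/
theorem sconv_Γ {C : Calc m} (hC : IsDir C) {u : ι → (M →ₘ[m] ℝ)} {v b : M →ₘ[m] ℝ} {K : ℝ}
    (hu : ∀ᶠ n in l, u n ∈ C.W) (hv : v ∈ C.W)
    (hK : ∀ᶠ n in l, ∀ᵐ x ∂m, C.Γ (u n - v) (u n - v) x ≤ K) {ζ : ℕ → (M →ₘ[m] ℝ)}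
    (h0 : ∀ j, ∀ᵐ x ∂m, |ζ j x| ≤ 1) (hζ2 : ∀ j, MemLp (ζ j) 2 m)
    (h1 : ∀ᵐ x ∂m, Tendsto (fun j => ζ j x) atTop (𝓝 1))
    (hlim : ∀ j, Tendsto (fun n => I (ζ j ^ 2 * C.Γ (u n - v) (u n - v))) l (𝓝 0))
    (hb : b ∈ C.W) : SConv l (fun n => C.Γ b (u n)) (C.Γ b v) := by
  have h2 := tendsto_I_weight (k := fun n => C.Γ (u n - v) (u n - v)) (K := K) (by
    filter_upwards [hu, hK] with n a1 a2
    exact ⟨hC.nonneg _ (hC.sub_mem a1 hv), a2⟩) h0 hζ2 h1 hlim (hC.mem1 b hb)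
  have key : ∀ᶠ n in l, MemLp (C.Γ b (u n) - C.Γ b v) 2 m ∧
      I ((C.Γ b (u n) - C.Γ b v) ^ 2) ≤ I (C.Γ b b * C.Γ (u n - v) (u n - v)) := by
    filter_upwards [hu, hK] with n a1 a2
    have hw : u n - v ∈ C.W := hC.sub_mem a1 hv
    have e1 : C.Γ b (u n) - C.Γ b v = C.Γ b (u n - v) := (hC.Γ_sub_right hb a1 hv).symm
    rw [e1]
    have e2 : MemLp (C.Γ (u n - v) (u n - v)) ∞ m := by
      rw [mem_top_iff]
      refine ⟨K, ?_⟩
      filter_upwards [hC.Γ_nonneg_ae hw, a2] with x b1 b2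
      rwa [abs_of_nonneg b1]
    have e3 : MemLp (C.Γ b (u n - v)) 2 m := by
      rw [hC.symm b hb _ hw]
      exact hC.Γ_mem2 hw e2 hb
    refine ⟨e3, ?_⟩
    refine I_mono (mem_sq e3) (mem_top_mul (hC.mem1 b hb) e2) ?_
    rw [le_iff_ae]
    filter_upwards [hC.Γ_cs_ae hb hw, sq_ae (C.Γ b (u n - v)),
      mul_ae (C.Γ b b) (C.Γ (u n - v) (u n - v))] with x b1 b2 b3
    rw [b2, b3]; exact b1
  refine ⟨key.mono fun n hn => hn.1, ?_⟩
  exact squeeze_zero' (Eventually.of_forall fun n => I_sq_nonneg _)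
    (key.mono fun n hn => hn.2) h2

end Vale.Agent.P233.UST
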